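import Mathlib
import Vale.Agent.P078.Main

namespace Vale.Agent.Results.P078.NowhereExpected

open Vale.Agent.P078

/-- Let `A` be a MASA of a von Neumann algebra `M` on a nonzero Hilbert space such that no corner
`Ap ⊆ pMp` admits a normal conditional expectation. Then every self-adjoint `x ∈ M` is
`(1 / r, r)` so-pavable for every `r ≥ 1`, and the paving number is exactly `⌈1 / ε⌉`. -/
theorem result {H : Type*} [NormedAddCommGroup H] [InnerProductSpace ℂ H] [CompleteSpace H]
    [Nontrivial H] (M : VonNeumannAlgebra H) (A : StarSubalgebra ℂ (H →L[ℂ] H))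
    (hA : IsMASA A M) (hne : NowhereExpected A M) :
    (∀ r : ℕ, 1 ≤ r → ∀ x ∈ M, IsSelfAdjoint x → SoPavable A M (1 / r) r x) ∧
    ∀ ε : ℝ, 0 < ε → pavingNumber A M ε = (⌈1 / ε⌉₊ : ℕ∞) :=
  ⟨fun _ hr _ hx hsa => soPavable_exact hA hne hr hx hsa, fun _ hε => pavingNumber_eq hA hne hε⟩

end Vale.Agent.Results.P078.NowhereExpected
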